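import Vale.Agent.P183.H996.Dual
import Vale.Agent.P183.H330D.Defs
import Vale.Agent.P183.Bdl.B3
import Mathlib.Order.Interval.Set.Basic

/-!
Group intervals: representability, the dual order and the intervals.
-/

namespace Vale.Agent.P183.R2.H409

open Vale.Agent.P183 Vale.Agent.P183.H996

/-- Group intervals are representable. -/
theorem gi_rep {L : Type} [LE L] (h : GroupInterval L) : Representable L := by
  obtain ⟨G, i1, i2, H, ⟨e⟩⟩ := h
  exact Representable.of_iso e (representable_interval G H)

theorem gi_iff {L : Type} [LE L] : GroupInterval L ↔ H330D.IsGroupInterval L := Iff.rfl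

/-- The interval `[A, B]` in the subgroup lattice of `G` in terms of the group `B`. -/
def subIso {G : Type} [Group G] (A B : Subgroup G) (hAB : A ≤ B) :
    {W : Subgroup G // A ≤ W ∧ W ≤ B} ≃o {W : Subgroup B // A.subgroupOf B ≤ W} where
  toFun W := ⟨W.1.subgroupOf B, fun x hx => W.2.1 hx⟩
  invFun W := ⟨W.1.map B.subtype, fun x hx =>
      Subgroup.mem_map.2 ⟨⟨x, hAB hx⟩, W.2 (Subgroup.mem_subgroupOf.2 hx), rfl⟩,
    Subgroup.map_subtype_le _⟩
  left_inv W := by
    apply Subtype.ext
    change (W.1.subgroupOf B).map B.subtype = W.1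
    rw [Subgroup.subgroupOf_map_subtype, inf_eq_left]
    exact W.2.2
  right_inv W := by
    apply Subtype.ext
    change (W.1.map B.subtype).subgroupOf B = W.1
    rw [Subgroup.subgroupOf, Subgroup.comap_map_eq_self_of_injective B.subtype_injective]
  map_rel_iff' := by
    intro W W'
    constructor
    · intro h x hx
      exact h (show (⟨x, W.2.2 hx⟩ : B) ∈ W.1.subgroupOf B from hx)
    · intro h x hx
      exact h hx

/-- Every interval of a group interval is a group interval. -/
theorem gi_icc {L : Type} [PartialOrder L] (h : GroupInterval L) {a b : L} (hab : a ≤ b) :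
    GroupInterval (Set.Icc a b) := by
  obtain ⟨G, i1, i2, H, ⟨e⟩⟩ := h
  have h1 : (e a).1 ≤ (e b).1 := e.monotone hab
  let f : Set.Icc a b ≃o {W : Subgroup G // (e a).1 ≤ W ∧ W ≤ (e b).1} :=
    { toFun := fun x => ⟨(e x.1).1, e.monotone x.2.1, e.monotone x.2.2⟩
      invFun := fun W => ⟨e.symm ⟨W.1, (e a).2.trans W.2.1⟩,
        e.le_symm_apply.2 W.2.1, e.symm_apply_le.2 W.2.2⟩
      left_inv := fun x => Subtype.ext (e.symm_apply_apply x.1)
      right_inv := fun W => by
        apply Subtype.ext
        change (e (e.symm ⟨W.1, (e a).2.trans W.2.1⟩)).1 = W.1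
        rw [e.apply_symm_apply]
      map_rel_iff' := by
        intro x y
        exact e.le_iff_le (x := x.1) (y := y.1) }
  exact ⟨(e b).1, inferInstance, inferInstance, (e a).1.subgroupOf (e b).1,
    ⟨f.trans (subIso _ _ h1)⟩⟩

/-- A group interval together with everything that follows from it. -/
def Good (L : Type) [PartialOrder L] : Prop :=
  GroupInterval L ∧ GroupInterval Lᵒᵈ ∧ Representable L ∧ Representable Lᵒᵈ ∧
    ∀ a b : L, a ≤ b → GroupInterval (Set.Icc a b) ∧ GroupInterval (Set.Icc a b)ᵒᵈ ∧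
      Representable (Set.Icc a b) ∧ Representable (Set.Icc a b)ᵒᵈ

theorem good_of {L : Type} [PartialOrder L] (h : GroupInterval L) : Good L :=
  ⟨h, h.dual, gi_rep h, gi_rep h.dual, fun _ _ hab =>
    ⟨gi_icc h hab, (gi_icc h hab).dual, gi_rep (gi_icc h hab), gi_rep (gi_icc h hab).dual⟩⟩

/-- Orders with one element. -/
theorem gi_unique (L : Type) [PartialOrder L] [Unique L] : GroupInterval L := by
  refine ⟨Multiplicative (ZMod 1), inferInstance, inferInstance, ⊤, ⟨?_⟩⟩
  have : Unique {W : Subgroup (Multiplicative (ZMod 1)) // ⊤ ≤ W} :=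
    { default := ⟨⊤, le_rfl⟩
      uniq := fun W => Subtype.ext (top_le_iff.1 W.2) }
  exact OrderIso.ofUnique L _

end Vale.Agent.P183.R2.H409
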