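import Vale.Agent.P183.R2.H409.Cor
import Vale.Agent.P183.R2.H409.Gi
import Mathlib.RingTheory.LocalRing.Basic
import Mathlib.RingTheory.LocalRing.Defs
import Mathlib.RingTheory.Nilpotent.Basic
import Mathlib.Algebra.Field.ZMod

/-!
Preorders and bounded distances on a finite set as group intervals, from the theorem on nets of
ideals.
-/

namespace Vale.Agent.P183.R2.H409

open Vale.Agent.P183 Vale.Agent.P183.H996

/-- The theorem on nets of ideals of finite local rings. -/
def NetMain : Prop :=
  ∀ (X R : Type) [Finite X] [CommRing R] [Finite R] [IsLocalRing R], GroupInterval (Net X R)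

theorem local_zmod (p k : ℕ) [hp : Fact p.Prime] (hk : 0 < k) : IsLocalRing (ZMod (p ^ k)) := by
  have : Fact (1 < p ^ k) := ⟨Nat.one_lt_pow hk.ne' hp.out.one_lt⟩
  have : Nontrivial (ZMod (p ^ k)) := ZMod.nontrivial _
  apply IsLocalRing.of_isUnit_or_isUnit_one_sub_self
  intro a
  obtain ⟨i, u, -, hu, rfl⟩ := zu p k a
  rcases Nat.eq_zero_or_pos i with rfl | hi
  · left
    rwa [pow_zero, mul_one]
  · right
    have h1 : IsNilpotent ((p : ZMod (p ^ k)) ^ i) := by
      refine ⟨k, ?_⟩
      rw [← pow_mul, mul_comm, pow_mul, zk, zero_pow hi.ne']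
    exact ((Commute.all u _).isNilpotent_mul_left h1).isUnit_one_sub

theorem gi_pre (h : NetMain) (X : Type) [Finite X] : GroupInterval (Pre X) := by
  have : Fact (Nat.Prime 2) := ⟨Nat.prime_two⟩
  exact (h X (ZMod 2)).of_iso (preNet X (ZMod 2))

theorem gi_dst (h : NetMain) (X : Type) [Finite X] (k : ℕ) : GroupInterval (Dst X k) := by
  rcases Nat.eq_zero_or_pos k with rfl | hk
  · have : Unique (Dst X 0) :=
      { default := ⟨fun _ _ => 0, fun _ _ => le_rfl, fun _ => rfl, fun _ _ _ => le_rfl⟩
        uniq := fun d => by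
          apply Subtype.ext
          funext x y
          exact Nat.le_zero.1 (d.2.1 x y) }
    exact gi_unique _
  · have hp : Fact (Nat.Prime 2) := ⟨Nat.prime_two⟩
    have := local_zmod 2 k hk
    have : NeZero (2 ^ k) := ⟨(pow_pos Nat.zero_lt_two k).ne'⟩
    have : Finite (ZMod (2 ^ k)) := inferInstance
    have h1 : GroupInterval (Dst X k)ᵒᵈ := (h X (ZMod (2 ^ k))).of_iso (dstZMod 2 k X)
    exact h1.dual.of_iso (OrderIso.dualDual _)

theorem good_net (h : NetMain) (X R : Type) [Finite X] [CommRing R] [Finite R] [IsLocalRing R] :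
    Good (Net X R) := good_of (h X R)

theorem good_pre (h : NetMain) (X : Type) [Finite X] : Good (Pre X) := good_of (gi_pre h X)

theorem good_dst (h : NetMain) (X : Type) [Finite X] (k : ℕ) : Good (Dst X k) :=
  good_of (gi_dst h X k)

end Vale.Agent.P183.R2.H409
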