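import Vale.Agent.P183.R2.H409.Cor
import Mathlib.Order.Hom.Lattice
import Mathlib.Data.Finite.Prod
import Mathlib.Data.Set.Finite.Lattice
import Mathlib.Order.Preorder.Finite
import Mathlib.SetTheory.Cardinal.Finite

/-!
The lattice of preorders on a finite set with at least three elements is simple.
-/

namespace Vale.Agent.P183.R2.H409

/-- Every lattice homomorphism from `L` is injective or constant, for every lattice structure on
the order `L`. -/
def SimpleLattice (L : Type) [LE L] : Prop :=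
  ∀ (M : Type) (_ : Lattice M) (_ : L ≃o M) (N : Type) (_ : Lattice N) (f : LatticeHom M N),
    Function.Injective f ∨ ∀ a b, f a = f b

variable {X : Type}

/-- the preorder with one pair -/
def at1 (x y : X) : Pre X :=
  ⟨fun u v => u = v ∨ (u = x ∧ v = y), fun _ => Or.inl rfl, fun u v w h1 h2 => by
    rcases h1 with rfl | ⟨rfl, rfl⟩
    · exact h2
    · rcases h2 with rfl | ⟨rfl, rfl⟩
      · exact Or.inr ⟨rfl, rfl⟩
      · exact Or.inr ⟨rfl, rfl⟩⟩

/-- equality -/
def bt (X : Type) : Pre X := ⟨fun u v => u = v, fun _ => rfl, fun _ _ _ h1 h2 => h1.trans h2⟩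

/-- the full relation -/
def tp (X : Type) : Pre X := ⟨fun _ _ => True, fun _ => trivial, fun _ _ _ _ _ => trivial⟩

lemma bt_le (p : Pre X) : bt X ≤ p := by
  intro u v (h : u = v)
  rw [h]
  exact p.2.1 v

lemma le_tp (p : Pre X) : p ≤ tp X := fun _ _ _ => trivial

lemma at1_le {p : Pre X} {x y : X} (h : p.1 x y) : at1 x y ≤ p := by
  intro u v huv
  rcases huv with rfl | ⟨rfl, rfl⟩
  · exact p.2.1 u
  · exact h

lemma at1_self {x y : X} : (at1 x y).1 x y := Or.inr ⟨rfl, rfl⟩

variable {M N : Type} [Lattice M] (e : Pre X ≃o M) [Lattice N] (f : LatticeHom M N)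

/-- the atom is collapsed -/
def Zr (x y : X) : Prop := f (e (at1 x y)) = f (e (bt X))

lemma le_e {p : Pre X} {m : M} : e p ≤ m ↔ p ≤ e.symm m := e.le_symm_apply.symm

lemma e_le {p : Pre X} {m : M} : m ≤ e p ↔ e.symm m ≤ p := e.symm_apply_le.symm

lemma inf_bt {p q : Pre X} (h : ∀ u v, p.1 u v → q.1 u v → u = v) : e p ⊓ e q = e (bt X) := by
  apply le_antisymm
  · rw [e_le]
    intro u v huv
    have h1 : e.symm (e p ⊓ e q) ≤ p := e.symm_apply_le.2 inf_le_left
    have h2 : e.symm (e p ⊓ e q) ≤ q := e.symm_apply_le.2 inf_le_right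
    exact h u v (h1 u v huv) (h2 u v huv)
  · exact le_inf (e.monotone (bt_le p)) (e.monotone (bt_le q))

lemma le_sup {p q r : Pre X} (h : ∀ s : Pre X, p ≤ s → q ≤ s → r ≤ s) : e r ≤ e p ⊔ e q := by
  rw [le_e]
  apply h
  · rw [← le_e]
    exact le_sup_left
  · rw [← le_e]
    exact le_sup_right

lemma step {p q r : Pre X} (hp : f (e p) = f (e (bt X)))
    (h1 : ∀ s : Pre X, p ≤ s → q ≤ s → r ≤ s) (h2 : ∀ u v, r.1 u v → q.1 u v → u = v) :
    f (e r) = f (e (bt X)) := by
  have e1 : e r ⊓ (e p ⊔ e q) = e r := inf_eq_left.2 (le_sup e h1)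
  calc f (e r) = f (e r ⊓ (e p ⊔ e q)) := by rw [e1]
    _ = f (e r) ⊓ (f (e (bt X)) ⊔ f (e q)) := by rw [map_inf, map_sup, hp]
    _ = f (e r ⊓ (e (bt X) ⊔ e q)) := by rw [map_inf, map_sup]
    _ = f (e r ⊓ e q) := by rw [sup_eq_right.2 (e.monotone (bt_le q))]
    _ = f (e (bt X)) := by rw [inf_bt e h2]

lemma step_right {x y : X} (hxy : x ≠ y) (h : Zr e f x y) (z : X) : Zr e f x z := by
  refine step e f (p := at1 x y) (q := at1 y z) h ?_ ?_
  · intro s hs1 hs2
    exact at1_le (s.2.2 _ _ _ (hs1 x y at1_self) (hs2 y z at1_self))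
  · intro u v h1 h2
    rcases h1 with h1 | ⟨h1, h1'⟩
    · exact h1
    · rcases h2 with h2 | ⟨h2, -⟩
      · exact h2
      · exact absurd (h1.symm.trans h2) hxy

lemma step_left {x y : X} (hxy : x ≠ y) (h : Zr e f x y) (z : X) : Zr e f z y := by
  refine step e f (p := at1 x y) (q := at1 z x) h ?_ ?_
  · intro s hs1 hs2
    exact at1_le (s.2.2 _ _ _ (hs2 z x at1_self) (hs1 x y at1_self))
  · intro u v h1 h2
    rcases h1 with h1 | ⟨h1, h1'⟩
    · exact h1
    · rcases h2 with h2 | ⟨-, h2⟩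
      · exact h2
      · exact absurd (h2.symm.trans h1') hxy

lemma all_zr (h3 : ∀ a b : X, ∃ c, c ≠ a ∧ c ≠ b) {x y : X} (hxy : x ≠ y) (h : Zr e f x y)
    (u v : X) : Zr e f u v := by
  have h1 : ∀ u v, v ≠ x → Zr e f u v := fun u v hv =>
    step_left e f hv.symm (step_right e f hxy h v) u
  obtain ⟨w, hw1, hw2⟩ := h3 x u
  exact step_right e f hw2.symm (h1 u w hw1) v

theorem simple_pre [Finite X] (h3 : ∀ a b : X, ∃ c, c ≠ a ∧ c ≠ b) : SimpleLattice (Pre X) := by
  intro M _ e N _ f
  by_contra hcon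
  rw [not_or] at hcon
  obtain ⟨hinj, hconst⟩ := hcon
  apply hconst
  have hz : ∃ x y, x ≠ y ∧ Zr e f x y := by
    rw [Function.Injective] at hinj
    push Not at hinj
    obtain ⟨a, b, hab, hne⟩ := hinj
    have hlt : a ⊓ b ≠ a ⊔ b := fun h => hne (inf_eq_sup.1 h)
    have hf : f (a ⊓ b) = f (a ⊔ b) := by rw [map_inf, map_sup, hab, inf_idem, sup_idem]
    have hle : e.symm (a ⊓ b) ≤ e.symm (a ⊔ b) := e.symm.monotone inf_le_sup
    have hn : ¬ e.symm (a ⊔ b) ≤ e.symm (a ⊓ b) := fun h =>
      hlt (le_antisymm inf_le_sup (e.symm.le_iff_le.1 h))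
    have : ∃ x y, (e.symm (a ⊔ b)).1 x y ∧ ¬ (e.symm (a ⊓ b)).1 x y := by
      by_contra hc
      push Not at hc
      exact hn hc
    obtain ⟨x, y, h1, h2⟩ := this
    refine ⟨x, y, ?_, ?_⟩
    · rintro rfl
      exact h2 ((e.symm (a ⊓ b)).2.1 x)
    · have e1 : e (at1 x y) ⊓ (a ⊔ b) = e (at1 x y) := by
        rw [inf_eq_left, le_e]
        exact at1_le h1
      have e2 : e (at1 x y) ⊓ (a ⊓ b) = e (bt X) := by
        have := inf_bt e (p := at1 x y) (q := e.symm (a ⊓ b)) (by
          intro u v hu hv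
          rcases hu with hu | ⟨rfl, rfl⟩
          · exact hu
          · exact absurd hv h2)
        rwa [e.apply_symm_apply] at this
      change f (e (at1 x y)) = f (e (bt X))
      rw [← e1, map_inf, ← hf, ← map_inf, e2]
  obtain ⟨x, y, hxy, hz⟩ := hz
  have hall := all_zr e f h3 hxy hz
  have : Finite (Pre X) := Subtype.finite
  let S : Set (Pre X) := {p | f (e p) = f (e (bt X))}
  obtain ⟨p, hp⟩ := (Set.toFinite S).exists_maximal ⟨bt X, rfl⟩
  have htop : f (e (tp X)) = f (e (bt X)) := by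
    have hpt : tp X ≤ p := by
      intro u v _
      have h1 : e.symm (e p ⊔ e (at1 u v)) ∈ S := by
        change f (e (e.symm (e p ⊔ e (at1 u v)))) = f (e (bt X))
        rw [e.apply_symm_apply, map_sup, hall u v, hp.1, sup_idem]
      have h2 : p ≤ e.symm (e p ⊔ e (at1 u v)) := by
        rw [← le_e]
        exact le_sup_left
      have h3' : at1 u v ≤ e.symm (e p ⊔ e (at1 u v)) := by
        rw [← le_e]
        exact le_sup_right
      exact hp.2 h1 h2 u v (h3' u v at1_self)
    have : p = tp X := le_antisymm (le_tp p) hpt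
    rw [← this]
    exact hp.1
  have hc : ∀ m : M, f m = f (e (bt X)) := by
    intro m
    apply le_antisymm
    · rw [← htop]
      apply OrderHomClass.mono f
      rw [e_le]
      exact le_tp _
    · apply OrderHomClass.mono f
      rw [le_e]
      exact bt_le _
  intro a b
  rw [hc a, hc b]

/-- the lattice of preorders on at least three points is simple -/
theorem simple_pre_card (X : Type) [Finite X] (h : 3 ≤ Nat.card X) : SimpleLattice (Pre X) := by
  classical
  apply simple_pre
  intro a b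
  by_contra hc
  push Not at hc
  have h1 : Nat.card X ≤ 2 := by
    have hs : (Set.univ : Set X) ⊆ {a, b} := by
      intro c _
      by_cases h : c = a
      · exact Or.inl h
      · exact Or.inr (hc c h)
    have h2 := Set.ncard_le_ncard hs (Set.toFinite _)
    rw [Set.ncard_univ] at h2
    exact h2.trans ((Set.ncard_insert_le a {b}).trans (by rw [Set.ncard_singleton]))
  omega

end Vale.Agent.P183.R2.H409
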