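import Vale.Agent.P183.R2.H409.Cor2

/-!
P183: pseudometrics with values in `{0, ..., k}` are the symmetric nets of ideals of
`ZMod (2 ^ k)`, with the reversed order.
-/

namespace Vale.Agent.P183.H577

open Vale.Agent.P183 Vale.Agent.P183.H996

namespace H409

open Vale.Agent.P183.R2.H409

/-- the symmetric nets of ideals -/
abbrev SNet (X R : Type) [CommRing R] : Type :=
  {s : X → X → Ideal R // (∀ x, s x x = ⊤) ∧ (∀ x y, s x y = s y x) ∧
    ∀ x y z, s x y * s y z ≤ s x z}

/-- the pseudometrics with values in `{0, ..., k}` -/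
abbrev Pm (X : Type) (k : ℕ) : Type :=
  {d : X → X → ℕ // (∀ x y, d x y ≤ k) ∧ (∀ x, d x x = 0) ∧
    (∀ x y, d x y = d y x) ∧ ∀ x y z, d x z ≤ d x y + d y z}

/-- forget the symmetry -/
def pd {X : Type} {k : ℕ} (d : Pm X k) : Dst X k := ⟨d.1, d.2.1, d.2.2.1, d.2.2.2.2⟩

/-- forget the symmetry -/
def sn {X R : Type} [CommRing R] (s : SNet X R) : Net X R := ⟨s.1, s.2.1, s.2.2.2⟩

/-- Pseudometrics are the symmetric nets of ideals of `ZMod (2 ^ k)`, with the reversed order. -/
noncomputable def pmIso (p : ℕ) [Fact p.Prime] (X : Type) (k : ℕ) :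
    (Pm X k)ᵒᵈ ≃o SNet X (ZMod (p ^ k)) where
  toFun d :=
    ⟨(dstZMod p k X (OrderDual.toDual (pd (OrderDual.ofDual d)))).1,
      (dstZMod p k X (OrderDual.toDual (pd (OrderDual.ofDual d)))).2.1,
      fun x y => congrArg (ch (p : ZMod (p ^ k))) ((OrderDual.ofDual d).2.2.2.1 x y),
      (dstZMod p k X (OrderDual.toDual (pd (OrderDual.ofDual d)))).2.2⟩
  invFun s := OrderDual.toDual
    ⟨(OrderDual.ofDual ((dstZMod p k X).symm (sn s))).1,
      (OrderDual.ofDual ((dstZMod p k X).symm (sn s))).2.1,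
      (OrderDual.ofDual ((dstZMod p k X).symm (sn s))).2.2.1,
      fun x y => congrArg (vI (p : ZMod (p ^ k))) (s.2.2.1 x y),
      (OrderDual.ofDual ((dstZMod p k X).symm (sn s))).2.2.2⟩
  left_inv d := by
    apply OrderDual.ofDual.injective
    apply Subtype.ext
    have h := (dstZMod p k X).symm_apply_apply (OrderDual.toDual (pd (OrderDual.ofDual d)))
    exact congrArg (fun e => (OrderDual.ofDual e).1) h
  right_inv s := by
    apply Subtype.ext
    have h := (dstZMod p k X).apply_symm_apply (sn s)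
    exact congrArg (fun e => e.1) h
  map_rel_iff' := by
    intro d d'
    exact (dstZMod p k X).map_rel_iff (a := OrderDual.toDual (pd (OrderDual.ofDual d)))
      (b := OrderDual.toDual (pd (OrderDual.ofDual d')))

end H409

/-- ROW 15: pseudometrics with values in `{0, ..., k}`. -/
theorem pm_row (h : ∀ (R X : Type) [CommRing R] [Finite R] [Finite X],
      GroupInterval {s : X → X → Ideal R // (∀ x, s x x = ⊤) ∧ (∀ x y, s x y = s y x) ∧
        ∀ x y z, s x y * s y z ≤ s x z})
    (X : Type) [Finite X] (k : ℕ) :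
    GroupInterval {d : X → X → ℕ // (∀ x y, d x y ≤ k) ∧ (∀ x, d x x = 0) ∧
      (∀ x y, d x y = d y x) ∧ ∀ x y z, d x z ≤ d x y + d y z} := by
  have hp : Fact (Nat.Prime 2) := ⟨Nat.prime_two⟩
  have : NeZero (2 ^ k) := ⟨(pow_pos Nat.zero_lt_two k).ne'⟩
  have : Finite (ZMod (2 ^ k)) := inferInstance
  have h1 : GroupInterval (H409.Pm X k)ᵒᵈ :=
    (h (ZMod (2 ^ k)) X).of_iso (H409.pmIso 2 X k)
  exact h1.dual.of_iso (OrderIso.dualDual _)

end Vale.Agent.P183.H577
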