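import Mathlib.RingTheory.Ideal.Operations
import Mathlib.RingTheory.Ideal.Span
import Mathlib.Data.ZMod.Basic
import Mathlib.Data.ZMod.Units
import Mathlib.Data.Nat.Factorization.Basic
import Mathlib.Order.Hom.Basic

/-!
Nets of ideals over special rings: preorders (fields) and bounded distances (chain rings).
-/

namespace Vale.Agent.P183.R2.H409

/-- The nets of ideals of `R` on the set `X`. -/
abbrev Net (X R : Type) [CommRing R] : Type :=
  {s : X → X → Ideal R // (∀ x, s x x = ⊤) ∧ ∀ x y z, s x y * s y z ≤ s x z}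

/-- The preorders on the set `X`. -/
abbrev Pre (X : Type) : Type :=
  {r : X → X → Prop // (∀ x, r x x) ∧ ∀ x y z, r x y → r y z → r x z}

/-- The distances with values in `{0, ..., k}` on the set `X` (no symmetry, zero distances
allowed), ordered pointwise. -/
abbrev Dst (X : Type) (k : ℕ) : Type :=
  {d : X → X → ℕ // (∀ x y, d x y ≤ k) ∧ (∀ x, d x x = 0) ∧ ∀ x y z, d x z ≤ d x y + d y z}

section field

variable {X K : Type} [Field K]

open Classical in
/-- the net of a preorder -/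
noncomputable def ri (K : Type) [Field K] (r : X → X → Prop) (x y : X) : Ideal K :=
  if r x y then ⊤ else ⊥

lemma ri_pos {r : X → X → Prop} {x y : X} (h : r x y) : ri K r x y = ⊤ := if_pos h

lemma ri_neg {r : X → X → Prop} {x y : X} (h : ¬ r x y) : ri K r x y = ⊥ := if_neg h

lemma ri_top {r : X → X → Prop} {x y : X} : ri K r x y = ⊤ ↔ r x y := by
  by_cases h : r x y
  · simp [ri_pos h, h]
  · simp [ri_neg h, h]

lemma ri_le {r r' : X → X → Prop} {x y : X} :
    ri K r x y ≤ ri K r' x y ↔ (r x y → r' x y) := by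
  by_cases h : r x y
  · rw [ri_pos h, top_le_iff, ri_top]
    exact ⟨fun h1 _ => h1, fun h1 => h1 h⟩
  · rw [ri_neg h]
    exact ⟨fun _ h1 => absurd h1 h, fun _ => bot_le⟩

/-- Preorders are the nets of ideals of a field. -/
noncomputable def preNet (X K : Type) [Field K] : Pre X ≃o Net X K where
  toFun r := ⟨ri K r.1, fun x => ri_pos (r.2.1 x), fun x y z => by
    by_cases h1 : r.1 x y
    · by_cases h2 : r.1 y z
      · rw [ri_pos (r.2.2 x y z h1 h2)]
        exact le_top
      · rw [ri_neg h2, Ideal.mul_bot]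
        exact bot_le
    · rw [ri_neg h1, Ideal.bot_mul]
      exact bot_le⟩
  invFun s := ⟨fun x y => s.1 x y = ⊤, s.2.1, fun x y z h1 h2 => by
    have := s.2.2 x y z
    rw [h1, h2, Ideal.top_mul, top_le_iff] at this
    exact this⟩
  left_inv r := by
    apply Subtype.ext
    funext x y
    exact propext ri_top
  right_inv s := by
    apply Subtype.ext
    funext x y
    rcases Ideal.eq_bot_or_top (s.1 x y) with h | h
    · change ri K (fun x y => s.1 x y = ⊤) x y = _
      rw [h]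
      apply ri_neg
      rw [h]
      exact bot_ne_top
    · change ri K (fun x y => s.1 x y = ⊤) x y = _
      rw [h]
      exact ri_pos h
  map_rel_iff' := by
    intro r r'
    exact ⟨fun h x y => ri_le.1 (h x y), fun h x y => ri_le.2 (h x y)⟩

end field

section chain

variable {X R : Type} [CommRing R] {t : R} {k : ℕ}

/-- the ideals `(t^i)` -/
def ch (t : R) (i : ℕ) : Ideal R := Ideal.span {t ^ i}

lemma mem_ch {x : R} {i : ℕ} : x ∈ ch t i ↔ ∃ a, a * t ^ i = x := Ideal.mem_span_singleton'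

lemma pow_mem_ch {i j : ℕ} (h : i ≤ j) : t ^ j ∈ ch t i :=
  mem_ch.2 ⟨t ^ (j - i), by rw [← pow_add, Nat.sub_add_cancel h]⟩

lemma ch_le {i j : ℕ} (h : i ≤ j) : ch t j ≤ ch t i := by
  rw [ch, Ideal.span_singleton_le_iff_mem]
  exact pow_mem_ch h

lemma ch_zero : ch t 0 = ⊤ := by simp [ch]

lemma ch_mul (i j : ℕ) : ch t i * ch t j = ch t (i + j) := by
  simp [ch, Ideal.span_singleton_mul_span_singleton, pow_add]

variable (hk : t ^ k = 0) (hne : ∀ i, i < k → t ^ i ∉ ch t (i + 1))
  (hu : ∀ x : R, ∃ i u, i ≤ k ∧ IsUnit u ∧ x = u * t ^ i)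

include hne in
lemma le_of_mem {i j : ℕ} (hi : i ≤ k) (h : t ^ j ∈ ch t i) : i ≤ j := by
  by_contra hn
  rw [not_le] at hn
  exact hne j (lt_of_lt_of_le hn hi) (ch_le hn h)

include hk in
lemma ex_mem (I : Ideal R) : ∃ i, t ^ i ∈ I := ⟨k, by rw [hk]; exact I.zero_mem⟩

/-- the order of an ideal -/
noncomputable def vI (t : R) (I : Ideal R) : ℕ := sInf {i | t ^ i ∈ I}

include hk in
lemma pow_vI (I : Ideal R) : t ^ vI t I ∈ I := Nat.sInf_mem (s := {i | t ^ i ∈ I}) (ex_mem hk I)

lemma vI_min {I : Ideal R} {i : ℕ} (h : t ^ i ∈ I) : vI t I ≤ i :=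
  Nat.sInf_le (s := {i | t ^ i ∈ I}) h

include hk in
lemma vI_le (I : Ideal R) : vI t I ≤ k := vI_min (by rw [hk]; exact I.zero_mem)

include hk hu in
lemma ch_vI (I : Ideal R) : ch t (vI t I) = I := by
  apply le_antisymm
  · rw [ch, Ideal.span_singleton_le_iff_mem]
    exact pow_vI hk I
  · intro x hx
    obtain ⟨i, u, -, hu1, hxu⟩ := hu x
    have h1 : t ^ i ∈ I := by
      rw [hxu] at hx
      obtain ⟨u', rfl⟩ := hu1
      have h3 := I.mul_mem_left (↑u'⁻¹ : R) hx
      rwa [← mul_assoc, Units.inv_mul, one_mul] at h3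
    rw [hxu]
    exact Ideal.mul_mem_left _ _ (pow_mem_ch (vI_min h1))

include hk hne in
lemma vI_ch {i : ℕ} (hi : i ≤ k) : vI t (ch t i) = i := by
  apply le_antisymm
  · exact vI_min (pow_mem_ch le_rfl)
  · exact le_of_mem hne hi (pow_vI hk (ch t i))

/-- Distances are the nets of ideals of a chain ring, with the reversed order. -/
noncomputable def dstNet (X : Type) (hk : t ^ k = 0) (hne : ∀ i, i < k → t ^ i ∉ ch t (i + 1))
    (hu : ∀ x : R, ∃ i u, i ≤ k ∧ IsUnit u ∧ x = u * t ^ i) : (Dst X k)ᵒᵈ ≃o Net X R where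
  toFun d := ⟨fun x y => ch t ((OrderDual.ofDual d).1 x y), fun x => by
      dsimp only
      rw [(OrderDual.ofDual d).2.2.1, ch_zero], fun x y z => by
    rw [ch_mul]
    exact ch_le ((OrderDual.ofDual d).2.2.2 x y z)⟩
  invFun s := OrderDual.toDual ⟨fun x y => vI t (s.1 x y), fun x y => vI_le hk _, fun x => by
      dsimp only
      rw [s.2.1 x, ← ch_zero (t := t), vI_ch hk hne (Nat.zero_le _)], fun x y z => by
    apply le_of_mem hne (vI_le hk _)
    rw [ch_vI hk hu]
    apply s.2.2 x y z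
    rw [pow_add]
    exact Ideal.mul_mem_mul (pow_vI hk _) (pow_vI hk _)⟩
  left_inv d := by
    apply OrderDual.toDual.symm.injective
    apply Subtype.ext
    funext x y
    exact vI_ch hk hne ((OrderDual.ofDual d).2.1 x y)
  right_inv s := by
    apply Subtype.ext
    funext x y
    exact ch_vI hk hu _
  map_rel_iff' := by
    intro d d'
    constructor
    · intro h x y
      exact le_of_mem hne ((OrderDual.ofDual d').2.1 x y)
        (h x y (pow_mem_ch le_rfl))
    · intro h x y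
      exact ch_le (h x y)

end chain

section zmod

variable (p k : ℕ) [hp : Fact p.Prime]

omit hp in
lemma zk : ((p : ZMod (p ^ k)) ^ k) = 0 := by
  rw [← Nat.cast_pow]
  exact ZMod.natCast_self _

lemma zne (i : ℕ) (hi : i < k) : ((p : ZMod (p ^ k)) ^ i) ∉ ch (p : ZMod (p ^ k)) (i + 1) := by
  intro h
  obtain ⟨a, ha⟩ := mem_ch.1 h
  have h1 : ((p : ZMod (p ^ k)) ^ (k - 1)) = 0 := by
    have e1 : k - 1 = i + (k - 1 - i) := by omega
    have e2 : i + 1 + (k - 1 - i) = k := by omega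
    rw [e1, pow_add, ← ha, mul_assoc, ← pow_add, e2, zk, mul_zero]
  rw [← Nat.cast_pow, ZMod.natCast_eq_zero_iff] at h1
  have h2 := (Nat.pow_dvd_pow_iff_le_right hp.out.one_lt).1 h1
  omega

lemma zu (x : ZMod (p ^ k)) : ∃ i u, i ≤ k ∧ IsUnit u ∧ x = u * (p : ZMod (p ^ k)) ^ i := by
  have hpos : 0 < p ^ k := pow_pos hp.out.pos k
  have : NeZero (p ^ k) := ⟨hpos.ne'⟩
  by_cases hx : x = 0
  · exact ⟨k, 1, le_rfl, isUnit_one, by rw [zk, mul_zero, hx]⟩
  · have hv : x.val ≠ 0 := by rwa [Ne, ZMod.val_eq_zero]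
    obtain ⟨m, hm, hxm⟩ : ∃ m, ¬ p ∣ m ∧ x.val = p ^ (x.val.factorization p) * m :=
      ⟨x.val / p ^ (x.val.factorization p), Nat.not_dvd_ordCompl hp.out hv,
        (Nat.ordProj_mul_ordCompl_eq_self _ _).symm⟩
    refine ⟨x.val.factorization p, (m : ZMod (p ^ k)), ?_, ?_, ?_⟩
    · by_contra hn
      rw [not_le] at hn
      have h1 : p ^ k ∣ x.val := (pow_dvd_pow p hn.le).trans (Dvd.intro _ hxm.symm)
      have h2 := Nat.le_of_dvd (Nat.pos_of_ne_zero hv) h1
      exact absurd (ZMod.val_lt x) (not_lt.2 h2)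
    · rw [ZMod.isUnit_iff_coprime]
      exact (Nat.Prime.coprime_iff_not_dvd hp.out |>.2 hm).symm.pow_right k
    · conv_lhs => rw [← ZMod.natCast_zmod_val x, hxm]
      push_cast
      ring

/-- Distances with values in `{0, ..., k}` are the nets of ideals of `ZMod (p ^ k)`. -/
noncomputable def dstZMod (X : Type) : (Dst X k)ᵒᵈ ≃o Net X (ZMod (p ^ k)) :=
  dstNet X (zk p k) (zne p k) (zu p k)

end zmod

end Vale.Agent.P183.R2.H409
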