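import Mathlib.Algebra.BigOperators.Option
import Mathlib.Algebra.BigOperators.Group.Finset.Basic
import Mathlib.Algebra.Order.BigOperators.Ring.Finset
import Mathlib.Algebra.Order.Ring.Pow
import Mathlib.Data.Fintype.Option
import Mathlib.Data.Fintype.EquivFin
import Mathlib.Data.Nat.Choose.Sum
import Mathlib.Tactic.Linarith
import Mathlib.Tactic.Ring
import Mathlib.Logic.Equiv.Fin.Basic

/-!
Exponents which separate products of bounded positive integers.
-/

namespace Vale.Agent.P183.R2.H409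

lemma pow_gap {B Q L a b : ℕ} (hL : B * Q < L) (ha1 : a ≤ B) (hab : a < b) (ha0 : 1 ≤ a) :
    Q * a ^ L < b ^ L := by
  have h1 : a ^ L + L * a ^ (L - 1) ≤ (a + 1) ^ L := by
    have hL0 : 1 ≤ L := by omega
    have key : ∀ n : ℕ, a ^ (n + 1) + (n + 1) * a ^ n ≤ (a + 1) ^ (n + 1) := by
      intro n
      induction n with
      | zero => simp
      | succ n ih =>
        calc a ^ (n + 1 + 1) + (n + 1 + 1) * a ^ (n + 1)
            ≤ (a ^ (n + 1) + (n + 1) * a ^ n) * (a + 1) := by
              have : (a ^ (n + 1) + (n + 1) * a ^ n) * (a + 1) =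
                  a ^ (n + 1 + 1) + (n + 1 + 1) * a ^ (n + 1) + (n + 1) * a ^ n := by ring
              rw [this]
              exact Nat.le_add_right _ _
          _ ≤ (a + 1) ^ (n + 1) * (a + 1) := Nat.mul_le_mul_right _ ih
          _ = (a + 1) ^ (n + 1 + 1) := by ring
    have := key (L - 1)
    rwa [Nat.sub_add_cancel hL0] at this
  have h2 : Q * a ^ L < L * a ^ (L - 1) := by
    have hL0 : 1 ≤ L := by omega
    have e1 : a ^ L = a ^ (L - 1) * a := by
      rw [← pow_succ, Nat.sub_add_cancel hL0]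
    have h3 : 0 < a ^ (L - 1) := pow_pos (by omega) _
    calc Q * a ^ L = (Q * a) * a ^ (L - 1) := by rw [e1]; ring
      _ ≤ (B * Q) * a ^ (L - 1) := Nat.mul_le_mul_right _ (by rw [mul_comm]; exact Nat.mul_le_mul_right _ ha1)
      _ < L * a ^ (L - 1) := Nat.mul_lt_mul_of_pos_right hL h3
  have h4 : (a + 1) ^ L ≤ b ^ L := Nat.pow_le_pow_left hab L
  have h5 : 0 ≤ a ^ L := Nat.zero_le _
  omega

/-- The sizes `m` separate the products `∏ f i ^ m i` with `1 ≤ f i ≤ B`. -/
def Sep {X : Type} [Fintype X] (B : ℕ) (m : X → ℕ) : Prop :=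
  ∀ f g : X → ℕ, (∀ i, 1 ≤ f i ∧ f i ≤ B) → (∀ i, 1 ≤ g i ∧ g i ≤ B) →
    ∏ i, f i ^ m i = ∏ i, g i ^ m i → f = g

lemma sep_option {X : Type} [Fintype X] {B c : ℕ} {m : X → ℕ}
    (hm : ∀ i, c ≤ m i) (h : Sep B m) :
    ∃ m' : Option X → ℕ, (∀ i, c ≤ m' i) ∧ Sep B m' := by
  set Q := ∏ i, B ^ m i with hQ
  set L := B * Q + c + 1 with hL
  refine ⟨fun o => o.elim L m, ?_, ?_⟩
  · intro o
    cases o with
    | none => change c ≤ L; omega
    | some i => exact hm i
  · have key : ∀ f g : Option X → ℕ, (∀ i, 1 ≤ f i ∧ f i ≤ B) → (∀ i, 1 ≤ g i ∧ g i ≤ B) →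
        ∏ i, f i ^ (fun o : Option X => o.elim L m) i =
          ∏ i, g i ^ (fun o : Option X => o.elim L m) i → ¬ f none < g none := by
      intro f g hf hg hfg hlt
      rw [Fintype.prod_option, Fintype.prod_option] at hfg
      simp only [Option.elim] at hfg
      have h1 : Q * f none ^ L < g none ^ L :=
        pow_gap (by omega) (hf none).2 hlt (hf none).1
      have h2 : ∏ i, f (some i) ^ m i ≤ Q :=
        Finset.prod_le_prod' fun i _ => Nat.pow_le_pow_left (hf (some i)).2 _
      have h3 : 1 ≤ ∏ i, g (some i) ^ m i :=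
        Nat.one_le_iff_ne_zero.2 (Finset.prod_ne_zero_iff.2 fun i _ =>
          pow_ne_zero _ (by have := (hg (some i)).1; omega))
      have h4 : f none ^ L * ∏ i, f (some i) ^ m i ≤ Q * f none ^ L := by
        rw [mul_comm]
        exact Nat.mul_le_mul_right _ h2
      have h5 : g none ^ L ≤ g none ^ L * ∏ i, g (some i) ^ m i := Nat.le_mul_of_pos_right _ h3
      omega
    intro f g hf hg hfg
    have h0 : f none = g none := by
      have h1 := key f g hf hg hfg
      have h2 := key g f hg hf hfg.symm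
      omega
    rw [Fintype.prod_option, Fintype.prod_option, h0] at hfg
    have h6 : 0 < g none ^ L := pow_pos (by have := (hg none).1; omega) _
    have h7 := Nat.eq_of_mul_eq_mul_left h6 hfg
    have h8 := h (fun i => f (some i)) (fun i => g (some i)) (fun i => hf _) (fun i => hg _) h7
    funext o
    cases o with
    | none => exact h0
    | some i => exact congrFun h8 i

lemma sep_equiv {X Y : Type} [Fintype X] [Fintype Y] (σ : Y ≃ X) {B c : ℕ} {m : X → ℕ}
    (hm : ∀ i, c ≤ m i) (h : Sep B m) :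
    ∃ m' : Y → ℕ, (∀ i, c ≤ m' i) ∧ Sep B m' := by
  refine ⟨fun y => m (σ y), fun y => hm _, ?_⟩
  intro f g hf hg hfg
  have h1 := h (fun i => f (σ.symm i)) (fun i => g (σ.symm i)) (fun i => hf _) (fun i => hg _) (by
    rw [← Equiv.prod_comp σ, ← Equiv.prod_comp σ]
    simpa using hfg)
  funext y
  have := congrFun h1 (σ y)
  simpa using this

/-- There are large sizes with `∏ f i ^ m i ≠ ∏ g i ^ m i` for all `f ≠ g` with values in
`{1, ..., B}`. -/
theorem exists_sizes (X : Type) [Fintype X] (B c : ℕ) :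
    ∃ m : X → ℕ, (∀ i, c ≤ m i) ∧ ∀ f g : X → ℕ, (∀ i, 1 ≤ f i ∧ f i ≤ B) →
      (∀ i, 1 ≤ g i ∧ g i ≤ B) → ∏ i, f i ^ m i = ∏ i, g i ^ m i → f = g := by
  rcases Nat.eq_zero_or_pos B with rfl | hB
  · refine ⟨fun _ => c, fun _ => le_rfl, ?_⟩
    intro f g hf _ _
    funext i
    have := hf i
    omega
  have key : ∀ n : ℕ, ∃ m : Fin n → ℕ, (∀ i, c ≤ m i) ∧ Sep B m := by
    intro n
    induction n with
    | zero => exact ⟨fun _ => c, fun _ => le_rfl, fun f g _ _ _ => funext fun i => i.elim0⟩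
    | succ n ih =>
      obtain ⟨m, hm, h⟩ := ih
      obtain ⟨m', hm', h'⟩ := sep_option hm h
      exact sep_equiv (finSuccEquiv n) hm' h'
  obtain ⟨m, hm, h⟩ := key (Fintype.card X)
  exact sep_equiv (Fintype.equivFin X) hm h

end Vale.Agent.P183.R2.H409
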