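import Mathlib.Data.Matrix.Basis
import Mathlib.Algebra.Group.Subgroup.Basic
import Mathlib.Algebra.Group.Subgroup.Lattice
import Mathlib.Data.Fintype.Card
import Mathlib.Tactic.NoncommRing
import Mathlib.Tactic.Abel

/-!
Elimination in the matrix rings of a net of additive groups with local corners.
-/

namespace Vale.Agent.P183.R2.H409

open Matrix

section mm

variable {A : Type*} [Ring A]

/-- `x` is the value of a member of `K`. -/
def Mm (K : Subgroup Aˣ) (x : A) : Prop := ∃ g ∈ K, (g : A) = x

variable {K : Subgroup Aˣ}

lemma mm_one : Mm K (1 : A) := ⟨1, K.one_mem, rfl⟩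

lemma mm_coe {g : Aˣ} : Mm K (g : A) ↔ g ∈ K :=
  ⟨fun ⟨h, hh, e⟩ => by rwa [← Units.ext e], fun h => ⟨g, h, rfl⟩⟩

lemma Mm.mul {x y : A} (hx : Mm K x) (hy : Mm K y) : Mm K (x * y) := by
  obtain ⟨g, hg, rfl⟩ := hx
  obtain ⟨h, hh, rfl⟩ := hy
  exact ⟨g * h, K.mul_mem hg hh, Units.val_mul g h⟩

lemma Mm.inv {x y : A} (hx : Mm K x) (h : x * y = 1) : Mm K y := by
  obtain ⟨g, hg, rfl⟩ := hx
  refine ⟨g⁻¹, K.inv_mem hg, ?_⟩
  calc (↑g⁻¹ : A) = ↑g⁻¹ * (↑g * y) := by rw [h, mul_one]
    _ = y := by rw [← mul_assoc, Units.inv_mul, one_mul]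

/-- The commutator of `1 + P` and `1 + Q`. -/
lemma Mm.comm {P Q : A} (hP : P * P = 0) (hQ : Q * Q = 0) (hQP : Q * P = 0)
    (h1 : Mm K (1 + P)) (h2 : Mm K (1 + Q)) : Mm K (1 + P * Q) := by
  have h3 : Mm K (1 - P) := h1.inv (by
    have : (1 + P) * (1 - P) = 1 - P * P := by noncomm_ring
    rw [this, hP, sub_zero])
  have h4 : Mm K (1 - Q) := h2.inv (by
    have : (1 + Q) * (1 - Q) = 1 - Q * Q := by noncomm_ring
    rw [this, hQ, sub_zero])
  have h5 : (1 + P) * (1 + Q) * ((1 - P) * (1 - Q)) = 1 + P * Q := by
    have e1 : (1 + P) * (1 + Q) = 1 + P + Q + P * Q := by noncomm_ring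
    have e2 : (1 - P) * (1 - Q) = 1 - P - Q + P * Q := by noncomm_ring
    rw [e1, e2]
    have e3 : (1 + P + Q + P * Q) * (1 - P - Q + P * Q) =
        1 + P * Q - P * P + P * P * Q - Q * P - Q * Q + Q * P * Q - P * (Q * P) - P * (Q * Q)
          + P * (Q * P) * Q := by noncomm_ring
    rw [e3]
    simp [hP, hQ, hQP]
  rw [← h5]
  exact (h1.mul h2).mul (h3.mul h4)

end mm


section net

variable {R : Type*} [Ring R] {X : Type*}

/-- A net `T` of additive groups with local corners. -/
structure LocalNet (e : X → R) (T : X → X → AddSubgroup R) : Prop where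
  mul : ∀ {i j k r s}, r ∈ T i j → s ∈ T j k → r * s ∈ T i k
  id_mem : ∀ i, e i ∈ T i i
  left : ∀ {i j r}, r ∈ T i j → e i * r = r
  right : ∀ {i j r}, r ∈ T i j → r * e j = r
  loc : ∀ {j x y}, x ∈ T j j → y ∈ T j j → x + y = e j →
    (∃ z ∈ T j j, z * x = e j ∧ x * z = e j) ∨ ∃ z ∈ T j j, z * y = e j ∧ y * z = e j

variable {e : X → R} {T : X → X → AddSubgroup R} (h : LocalNet e T)

/-- invertible in the corner -/
def Uc (e : X → R) (T : X → X → AddSubgroup R) (j : X) (x : R) : Prop :=
  ∃ z ∈ T j j, z * x = e j ∧ x * z = e j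

lemma Uc.ne {j : X} (hj : e j ≠ 0) {x : R} (hx : Uc e T j x) : x ≠ 0 := by
  rintro rfl
  obtain ⟨z, -, h1, -⟩ := hx
  rw [mul_zero] at h1
  exact hj h1.symm

include h in
lemma Uc.of_add {j : X} {x y : R} (hx : x ∈ T j j) (hy : y ∈ T j j) (hxy : Uc e T j (x + y)) :
    Uc e T j x ∨ Uc e T j y := by
  obtain ⟨z, hz, h1, h2⟩ := hxy
  have key : ∀ x, x ∈ T j j → (∃ w ∈ T j j, w * (x * z) = e j ∧ x * z * w = e j) →
      ∀ s, s ∈ T j j → z * s = e j → s * z = e j → Uc e T j x := by
    intro x hx hw s hs hs1 hs2
    obtain ⟨w, hw, hw1, hw2⟩ := hw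
    refine ⟨z * w, h.mul hz hw, ?_, ?_⟩
    · have h3 : w * x = s := by
        calc w * x = w * x * e j := by rw [mul_assoc, h.right hx]
          _ = w * (x * z) * s := by rw [← hs1]; simp only [mul_assoc]
          _ = s := by rw [hw1, h.left hs]
      rw [mul_assoc, h3, hs1]
    · rw [← mul_assoc, hw2]
  rcases h.loc (h.mul hx hz) (h.mul hy hz) (by rw [← add_mul, h2]) with h3 | h3
  · exact Or.inl (key x hx h3 (x + y) (add_mem hx hy) h1 h2)
  · exact Or.inr (key y hy h3 (x + y) (add_mem hx hy) h1 h2)

include h in
lemma Uc.of_sum {j : X} (hj : e j ≠ 0) {ι : Type*} (s : Finset ι) (f : ι → R) (hf : ∀ i ∈ s, f i ∈ T j j)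
    (hs : Uc e T j (∑ i ∈ s, f i)) : ∃ i ∈ s, Uc e T j (f i) := by
  classical
  induction s using Finset.induction_on with
  | empty =>
    rw [Finset.sum_empty] at hs
    exact absurd rfl (hs.ne hj)
  | insert a s ha ih =>
    rw [Finset.sum_insert ha] at hs
    rcases hs.of_add h (hf a (Finset.mem_insert_self a s))
      (sum_mem fun i hi => hf i (Finset.mem_insert_of_mem hi)) with h1 | h1
    · exact ⟨a, Finset.mem_insert_self a s, h1⟩
    · obtain ⟨i, hi, h2⟩ := ih (fun i hi => hf i (Finset.mem_insert_of_mem hi)) h1
      exact ⟨i, Finset.mem_insert_of_mem hi, h2⟩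

include h in
/-- one-sided inverses in the corner are inverses -/
lemma right_inv_of_left {j : X} (hj : e j ≠ 0) {x y : R} (hx : x ∈ T j j) (hy : y ∈ T j j) (hxy : x * y = e j) :
    y * x = e j := by
  have hq : y * x ∈ T j j := h.mul hy hx
  have hqq : y * x * (y * x) = y * x := by
    calc y * x * (y * x) = y * (x * y) * x := by simp only [mul_assoc]
      _ = y * x := by rw [hxy, h.right hy]
  have hid : ∀ q ∈ T j j, q * q = q → (∃ z ∈ T j j, z * q = e j ∧ q * z = e j) → q = e j := by
    intro q hq hqq ⟨z, hz, h1, h2⟩
    calc q = e j * q := (h.left hq).symm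
      _ = z * (q * q) := by rw [← h1, mul_assoc]
      _ = e j := by rw [hqq, h1]
  have he : e j * e j = e j := h.left (h.id_mem j)
  rcases h.loc hq (sub_mem (h.id_mem j) hq) (by abel) with h1 | h1
  · exact hid _ hq hqq h1
  · exfalso
    have h2 := hid _ (sub_mem (h.id_mem j) hq) (by
      rw [sub_mul, mul_sub, mul_sub, he, h.left hq, h.right hq, hqq]
      abel) h1
    have h3 : y * x = 0 := by
      have : e j - (e j - y * x) = 0 := by rw [h2, sub_self]
      simpa using this
    apply hj
    calc e j = x * y * (x * y) := by rw [hxy, he]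
      _ = x * (y * x) * y := by simp only [mul_assoc]
      _ = 0 := by rw [h3, mul_zero, zero_mul]

end net

section mat

variable {R : Type*} [Ring R] {X N : Type*} [Fintype N] [DecidableEq N] (p : N → X)

/-- the entries of `x - 1` lie in `T` -/
def Ov (T : X → X → AddSubgroup R) (x : Matrix N N R) : Prop :=
  ∀ a b, (x - 1) a b ∈ T (p a) (p b)

variable {p} {T : X → X → AddSubgroup R}

lemma ov_mul (hT : ∀ i j k r s, r ∈ T i j → s ∈ T j k → r * s ∈ T i k)
    {x y : Matrix N N R} (hx : Ov p T x) (hy : Ov p T y) : Ov p T (x * y) := by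
  intro a b
  have : x * y - 1 = (x - 1) * (y - 1) + (x - 1) + (y - 1) := by noncomm_ring
  rw [this, Matrix.add_apply, Matrix.add_apply, Matrix.mul_apply]
  exact add_mem (add_mem (sum_mem fun c _ => hT _ _ _ _ _ (hx a c) (hy c b)) (hx a b)) (hy a b)

/-- the matrix with one column -/
def colM (b : N) (w : N → R) : Matrix N N R := Matrix.of fun c d => if d = b then w c else 0

/-- the matrix with one row -/
def rowM (b : N) (w : N → R) : Matrix N N R := Matrix.of fun c d => if c = b then w d else 0

omit [Fintype N] in
lemma colM_apply (b : N) (w : N → R) (c d : N) : colM b w c d = if d = b then w c else 0 := rfl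

omit [Fintype N] in
lemma rowM_apply (b : N) (w : N → R) (c d : N) : rowM b w c d = if c = b then w d else 0 := rfl

lemma colM_mul (b : N) (w : N → R) (M : Matrix N N R) (c d : N) :
    (colM b w * M) c d = w c * M b d := by
  rw [Matrix.mul_apply, Finset.sum_eq_single b]
  · rw [colM_apply, if_pos rfl]
  · intro x _ hx
    rw [colM_apply, if_neg hx, zero_mul]
  · intro hb
    exact absurd (Finset.mem_univ b) hb

lemma mul_rowM (b : N) (w : N → R) (M : Matrix N N R) (c d : N) :
    (M * rowM b w) c d = M c b * w d := by
  rw [Matrix.mul_apply, Finset.sum_eq_single b]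
  · rw [rowM_apply, if_pos rfl]
  · intro x _ hx
    rw [rowM_apply, if_neg hx, mul_zero]
  · intro hb
    exact absurd (Finset.mem_univ b) hb

variable {K : Subgroup (Matrix N N R)ˣ}

lemma mm_col (hE : ∀ a b r, a ≠ b → r ∈ T (p a) (p b) → Mm K (1 + Matrix.single a b r)) (b : N)
    (w : N → R) (hb : w b = 0) (hw : ∀ c, w c ∈ T (p c) (p b)) : Mm K (1 + colM b w) := by
  classical
  have key : ∀ (s : Finset N) (w : N → R), w b = 0 → (∀ c, w c ∈ T (p c) (p b)) →
      (∀ c, c ∉ s → w c = 0) → Mm K (1 + colM b w) := by
    intro s
    induction s using Finset.induction_on with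
    | empty =>
      intro w _ _ h0
      have : colM b w = 0 := by
        ext c d
        rw [colM_apply, h0 c (Finset.notMem_empty c), ite_self, Matrix.zero_apply]
      rw [this, add_zero]
      exact mm_one
    | insert a s ha ih =>
      intro w hb hw h0
      by_cases hab : a = b
      · apply ih w hb hw
        intro c hc
        by_cases hcb : c = b
        · rw [hcb, hb]
        · exact h0 c (by rw [Finset.mem_insert, hab]; tauto)
      · have e1 : 1 + colM b w =
            (1 + colM b (Function.update w a 0)) * (1 + Matrix.single a b (w a)) := by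
          rw [add_mul, mul_add, mul_add, one_mul, one_mul, mul_one]
          have e2 : colM b (Function.update w a 0) * Matrix.single a b (w a) = 0 := by
            ext c d
            rw [colM_mul, Matrix.zero_apply, Matrix.single_apply_of_row_ne hab, mul_zero]
          rw [e2, add_zero]
          have e3 : colM b w = Matrix.single a b (w a) + colM b (Function.update w a 0) := by
            ext c d
            rw [Matrix.add_apply, colM_apply, colM_apply, Matrix.single_apply]
            by_cases hd : d = b
            · subst hd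
              rw [if_pos rfl, if_pos rfl]
              by_cases hc : c = a
              · subst hc
                simp
              · rw [Function.update_of_ne hc, if_neg (fun h => hc h.1.symm), zero_add]
            · rw [if_neg hd, if_neg hd, if_neg (fun h => hd h.2.symm), add_zero]
          rw [e3]
          abel
        rw [e1]
        apply Mm.mul
        · apply ih
          · rw [Function.update_of_ne (Ne.symm hab), hb]
          · intro c
            by_cases hc : c = a
            · subst hc
              rw [Function.update_self]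
              exact zero_mem _
            · rw [Function.update_of_ne hc]
              exact hw c
          · intro c hc
            by_cases hca : c = a
            · subst hca
              rw [Function.update_self]
            · rw [Function.update_of_ne hca]
              exact h0 c (by rw [Finset.mem_insert]; tauto)
        · exact hE a b _ hab (hw a)
  exact key Finset.univ w hb hw (fun c hc => absurd (Finset.mem_univ c) hc)

lemma mm_row (hE : ∀ a b r, a ≠ b → r ∈ T (p a) (p b) → Mm K (1 + Matrix.single a b r)) (b : N)
    (w : N → R) (hb : w b = 0) (hw : ∀ d, w d ∈ T (p b) (p d)) : Mm K (1 + rowM b w) := by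
  classical
  have key : ∀ (s : Finset N) (w : N → R), w b = 0 → (∀ d, w d ∈ T (p b) (p d)) →
      (∀ c, c ∉ s → w c = 0) → Mm K (1 + rowM b w) := by
    intro s
    induction s using Finset.induction_on with
    | empty =>
      intro w _ _ h0
      have : rowM b w = 0 := by
        ext c d
        rw [rowM_apply, h0 d (Finset.notMem_empty d), ite_self, Matrix.zero_apply]
      rw [this, add_zero]
      exact mm_one
    | insert a s ha ih =>
      intro w hb hw h0
      by_cases hab : a = b
      · apply ih w hb hw
        intro c hc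
        by_cases hcb : c = b
        · rw [hcb, hb]
        · exact h0 c (by rw [Finset.mem_insert, hab]; tauto)
      · have e1 : 1 + rowM b w =
            (1 + Matrix.single b a (w a)) * (1 + rowM b (Function.update w a 0)) := by
          rw [add_mul, mul_add, mul_add, one_mul, one_mul, mul_one]
          have e2 : Matrix.single b a (w a) * rowM b (Function.update w a 0) = 0 := by
            ext c d
            rw [mul_rowM, Matrix.zero_apply, Matrix.single_apply_of_col_ne _ _ hab, zero_mul]
          rw [e2, add_zero]
          have e3 : rowM b w = Matrix.single b a (w a) + rowM b (Function.update w a 0) := by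
            ext c d
            rw [Matrix.add_apply, rowM_apply, rowM_apply, Matrix.single_apply]
            by_cases hd : c = b
            · subst hd
              rw [if_pos rfl, if_pos rfl]
              by_cases hc : d = a
              · subst hc
                simp
              · rw [Function.update_of_ne hc, if_neg (fun h => hc h.2.symm), zero_add]
            · rw [if_neg hd, if_neg hd, if_neg (fun h => hd h.1.symm), add_zero]
          rw [e3]
          abel
        rw [e1]
        apply Mm.mul
        · exact hE b a _ (Ne.symm hab) (hw a)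
        · apply ih
          · rw [Function.update_of_ne (Ne.symm hab), hb]
          · intro c
            by_cases hc : c = a
            · subst hc
              rw [Function.update_self]
              exact zero_mem _
            · rw [Function.update_of_ne hc]
              exact hw c
          · intro c hc
            by_cases hca : c = a
            · subst hca
              rw [Function.update_self]
            · rw [Function.update_of_ne hca]
              exact h0 c (by rw [Finset.mem_insert]; tauto)
  exact key Finset.univ w hb hw (fun c hc => absurd (Finset.mem_univ c) hc)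

end mat

section core

variable {R : Type*} [Ring R] {X N : Type*} [Fintype N] [DecidableEq N] {p : N → X}
  {e : X → R} {T : X → X → AddSubgroup R} (h : LocalNet e T) {L : Subgroup (Matrix N N R)ˣ}

lemma single_mul_apply_ite (b a : N) (w : R) (M : Matrix N N R) (c d : N) :
    (Matrix.single b a w * M) c d = if c = b then w * M a d else 0 := by
  by_cases hc : c = b
  · subst hc
    simp
  · rw [if_neg hc]
    simp [hc]

/-- the rows and columns in `S` are trivial -/
def Triv (S : Finset N) (x : Matrix N N R) : Prop :=
  ∀ a b, (a ∈ S ∨ b ∈ S) → x a b = (1 : Matrix N N R) a b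

omit [Fintype N] in
lemma ov_off {x : Matrix N N R} (hx : Ov p T x) {a c : N} (hac : a ≠ c) :
    x a c ∈ T (p a) (p c) := by
  have := hx a c
  rwa [Matrix.sub_apply, Matrix.one_apply_ne hac, sub_zero] at this

omit [Fintype N] in
lemma ov_dg {x : Matrix N N R} (hx : Ov p T x) (a : N) : x a a - 1 ∈ T (p a) (p a) := by
  have := hx a a
  rwa [Matrix.sub_apply, Matrix.one_apply_eq] at this

omit [Fintype N] in
include h in
lemma ov_comm {x : Matrix N N R} (hx : Ov p T x) (a c : N) :
    e (p a) * x a c = x a c * e (p c) := by
  by_cases hac : a = c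
  · subst hac
    have h1 := ov_dg hx a
    have h2 := h.left h1
    have h3 := h.right h1
    rw [mul_sub, mul_one] at h2
    rw [sub_mul, one_mul] at h3
    have h4 : e (p a) * x a a = x a a - 1 + e (p a) := by rw [← h2]; abel
    have h5 : x a a * e (p a) = x a a - 1 + e (p a) := by rw [← h3]; abel
    rw [h4, h5]
  · rw [h.left (ov_off hx hac), h.right (ov_off hx hac)]

omit [Fintype N] in
include h in
lemma ov_diag {x : Matrix N N R} (hx : Ov p T x) (a : N) :
    x a a - e (p a) * x a a = 1 - e (p a) := by
  have h2 := h.left (ov_dg hx a)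
  rw [mul_sub, mul_one] at h2
  have h4 : e (p a) * x a a = x a a - 1 + e (p a) := by rw [← h2]; abel
  rw [h4]
  abel

omit [Fintype N] in
include h in
lemma ov_mem {x : Matrix N N R} (hx : Ov p T x) (a c : N) :
    e (p a) * x a c ∈ T (p a) (p c) := by
  by_cases hac : a = c
  · subst hac
    have h2 := h.left (ov_dg hx a)
    rw [mul_sub, mul_one] at h2
    have h4 : e (p a) * x a a = x a a - 1 + e (p a) := by rw [← h2]; abel
    rw [h4]
    exact add_mem (ov_dg hx a) (h.id_mem _)
  · rw [h.left (ov_off hx hac)]
    exact ov_off hx hac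

include h in
lemma pivot (hE : ∀ a b r, a ≠ b → r ∈ T (p a) (p b) → Mm L (1 + Matrix.single a b r))
    (hD : ∀ a x y, x ∈ T (p a) (p a) → y ∈ T (p a) (p a) → x * y = e (p a) → y * x = e (p a) →
      Mm L (1 + Matrix.single a a (x - e (p a))))
    {S : Finset N} {b : N} (hb : b ∉ S) (hj : e (p b) ≠ 0) {x x' : Matrix N N R}
    (hx : Ov p T x) (hx' : Ov p T x') (hxx : x' * x = 1) (hS : Triv S x) :
    ∃ l, Mm L l ∧ Triv S (l * x) ∧ (l * x) b b = 1 := by
  have hee : ∀ i, e i * e i = e i := fun i => h.left (h.id_mem i)
  have hsum : ∑ a, (e (p b) * x' b a) * (e (p a) * x a b) = e (p b) := by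
    have h1 : ∀ a, (e (p b) * x' b a) * (e (p a) * x a b) = (x' b a * x a b) * e (p b) := by
      intro a
      calc (e (p b) * x' b a) * (e (p a) * x a b)
          = x' b a * (e (p a) * e (p a)) * x a b := by
            rw [ov_comm h hx' b a]
            simp only [mul_assoc]
        _ = x' b a * (e (p a) * x a b) := by rw [hee]; simp only [mul_assoc]
        _ = (x' b a * x a b) * e (p b) := by rw [ov_comm h hx a b]; simp only [mul_assoc]
    rw [Finset.sum_congr rfl fun a _ => h1 a, ← Finset.sum_mul, ← Matrix.mul_apply, hxx,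
      Matrix.one_apply_eq, one_mul]
  obtain ⟨a, -, ha⟩ := Uc.of_sum h hj Finset.univ
    (fun a => (e (p b) * x' b a) * (e (p a) * x a b))
    (fun a _ => h.mul (ov_mem h hx' b a) (ov_mem h hx a b))
    ⟨e (p b), h.id_mem _, by rw [hsum, hee], by rw [hsum, hee]⟩
  have haS : a ∉ S := by
    intro haS
    have hab : a ≠ b := fun hab => hb (hab ▸ haS)
    apply ha.ne hj
    change e (p b) * x' b a * (e (p a) * x a b) = 0
    rw [hS a b (Or.inl haS), Matrix.one_apply_ne hab, mul_zero, mul_zero]
  obtain ⟨z, hz, hz1, -⟩ := ha
  have hy : z * (e (p b) * x' b a) ∈ T (p b) (p a) := h.mul hz (ov_mem h hx' b a)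
  have hy1 : z * (e (p b) * x' b a) * (e (p a) * x a b) = e (p b) := by rw [mul_assoc, hz1]
  generalize z * (e (p b) * x' b a) = y at hy hy1
  have hbS : ∀ d ∈ S, x b d = 0 := fun d hd => by
    rw [hS b d (Or.inr hd), Matrix.one_apply_ne (show b ≠ d from fun hbd => hb (hbd ▸ hd))]
  have haS' : ∀ d ∈ S, x a d = 0 := fun d hd => by
    rw [hS a d (Or.inr hd), Matrix.one_apply_ne (show a ≠ d from fun hbd => haS (hbd ▸ hd))]
  have key : ∀ w, w * x a b = e (p b) - e (p b) * x b b → Mm L (1 + Matrix.single b a w) →
      ∃ l, Mm L l ∧ Triv S (l * x) ∧ (l * x) b b = 1 := by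
    intro w hw hl
    refine ⟨_, hl, ?_, ?_⟩
    · intro c d hcd
      rw [add_mul, one_mul, Matrix.add_apply, single_mul_apply_ite]
      by_cases hc : c = b
      · subst hc
        rw [if_pos rfl]
        rcases hcd with hcd | hcd
        · exact absurd hcd hb
        · rw [haS' d hcd, mul_zero, add_zero]
          exact hS c d (Or.inr hcd)
      · rw [if_neg hc, add_zero]
        exact hS c d hcd
    · rw [add_mul, one_mul, Matrix.add_apply, single_mul_apply_ite, if_pos rfl, hw]
      have h5 := ov_diag h hx b
      have h6 : x b b + (e (p b) - e (p b) * x b b) = x b b - e (p b) * x b b + e (p b) := by abel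
      rw [h6, h5]
      abel
  by_cases hab : a = b
  · subst hab
    have hg : e (p a) * x a a ∈ T (p a) (p a) := ov_mem h hx a a
    have hy2 := right_inv_of_left h hj hy hg hy1
    refine key (y - e (p a)) ?_ (hD a y _ hy hg hy1 hy2)
    have h7 : (y - e (p a)) * x a a = (y - e (p a)) * (e (p a) * x a a) := by
      have h8 : (y - e (p a)) * e (p a) = y - e (p a) := by rw [sub_mul, h.right hy, hee]
      rw [← mul_assoc, h8]
    have h9 : e (p a) * (e (p a) * x a a) = e (p a) * x a a := by rw [← mul_assoc, hee]
    rw [h7, sub_mul, hy1, h9]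
  · refine key ((e (p b) - e (p b) * x b b) * y) ?_ (hE b a _ (Ne.symm hab)
      (h.mul (sub_mem (h.id_mem _) (ov_mem h hx b b)) hy))
    calc (e (p b) - e (p b) * x b b) * y * x a b
        = (e (p b) - e (p b) * x b b) * (y * (e (p a) * x a b)) := by
          rw [mul_assoc, ← mul_assoc y (e (p a)), h.right hy]
      _ = e (p b) - e (p b) * x b b := by
          rw [hy1, sub_mul, hee, h.right (ov_mem h hx b b)]

lemma clear (hE : ∀ a b r, a ≠ b → r ∈ T (p a) (p b) → Mm L (1 + Matrix.single a b r))
    {S : Finset N} {b : N} (hb : b ∉ S) {x : Matrix N N R} (hx : Ov p T x) (hS : Triv S x)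
    (h1 : x b b = 1) :
    ∃ l r, Mm L l ∧ Mm L r ∧ Triv (insert b S) (l * x * r) := by
  have hbS : ∀ d ∈ S, x b d = 0 := fun d hd => by
    rw [hS b d (Or.inr hd), Matrix.one_apply_ne (show b ≠ d from fun hbd => hb (hbd ▸ hd))]
  have hcS : ∀ c ∈ S, x c b = 0 := fun c hc => by
    rw [hS c b (Or.inl hc), Matrix.one_apply_ne (show c ≠ b from fun hbd => hb (hbd ▸ hc))]
  set w : N → R := fun c => if c = b then 0 else -x c b with hw
  set w' : N → R := fun d => if d = b then 0 else -x b d with hw'
  refine ⟨1 + colM b w, 1 + rowM b w', ?_, ?_, ?_⟩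
  · apply mm_col hE b w (if_pos rfl)
    intro c
    rw [hw]
    dsimp only
    split_ifs with hc
    · exact zero_mem _
    · exact neg_mem (ov_off hx hc)
  · apply mm_row hE b w' (if_pos rfl)
    intro c
    rw [hw']
    dsimp only
    split_ifs with hc
    · exact zero_mem _
    · exact neg_mem (ov_off hx (Ne.symm hc))
  · have hl : ∀ c d, ((1 + colM b w) * x) c d = x c d + w c * x b d := by
      intro c d
      rw [add_mul, one_mul, Matrix.add_apply, colM_mul]
    have hr : ∀ c d, ((1 + colM b w) * x * (1 + rowM b w')) c d =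
        x c d + w c * x b d + (x c b + w c * x b b) * w' d := by
      intro c d
      rw [mul_add, mul_one, Matrix.add_apply, mul_rowM, hl, hl]
    intro c d hcd
    rw [hr, h1, mul_one]
    by_cases hc : c = b
    · subst hc
      rw [h1]
      have : w c = 0 := if_pos rfl
      rw [this, zero_mul, add_zero, add_zero, one_mul]
      by_cases hd : d = c
      · subst hd
        have : w' d = 0 := if_pos rfl
        rw [this, h1, add_zero, Matrix.one_apply_eq]
      · have : w' d = -x c d := if_neg hd
        rw [this, add_neg_cancel, Matrix.one_apply_ne (Ne.symm hd)]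
    · have hwc : w c = -x c b := if_neg hc
      rw [hwc, add_neg_cancel, zero_mul, add_zero]
      by_cases hd : d = b
      · subst hd
        rw [h1, mul_one, add_neg_cancel, Matrix.one_apply_ne hc]
      · rcases hcd with hcd | hcd
        · have hcS' : c ∈ S := by
            rcases Finset.mem_insert.1 hcd with h2 | h2
            · exact absurd h2 hc
            · exact h2
          rw [hcS c hcS', neg_zero, zero_mul, add_zero]
          exact hS c d (Or.inl hcS')
        · have hdS : d ∈ S := by
            rcases Finset.mem_insert.1 hcd with h2 | h2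
            · exact absurd h2 hd
            · exact h2
          rw [hbS d hdS, mul_zero, add_zero]
          exact hS c d (Or.inr hdS)

include h in
/-- **Elimination.** -/
theorem elim_core (hOv : ∀ g ∈ L, Ov p T (g : Matrix N N R))
    (hE : ∀ a b r, a ≠ b → r ∈ T (p a) (p b) → Mm L (1 + Matrix.single a b r))
    (hD : ∀ a x y, x ∈ T (p a) (p a) → y ∈ T (p a) (p a) → x * y = e (p a) → y * x = e (p a) →
      Mm L (1 + Matrix.single a a (x - e (p a))))
    (g : (Matrix N N R)ˣ) (hg : Ov p T (g : Matrix N N R))
    (hg' : Ov p T ((g⁻¹ : (Matrix N N R)ˣ) : Matrix N N R)) : g ∈ L := by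
  have hT : ∀ i j k r s, r ∈ T i j → s ∈ T j k → r * s ∈ T i k :=
    fun _ _ _ _ _ h1 h2 => h.mul h1 h2
  have key : ∀ (n : ℕ) (S : Finset N), Sᶜ.card = n → ∀ g : (Matrix N N R)ˣ,
      Ov p T (g : Matrix N N R) → Ov p T ((g⁻¹ : (Matrix N N R)ˣ) : Matrix N N R) →
      Triv S (g : Matrix N N R) → g ∈ L := by
    intro n
    induction n with
    | zero =>
      intro S hS g _ _ hg
      have hS' : S = Finset.univ := by
        rwa [Finset.card_eq_zero, Finset.compl_eq_empty_iff] at hS
      have : g = 1 := by
        apply Units.ext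
        ext a b
        rw [Units.val_one]
        exact hg a b (Or.inl (hS' ▸ Finset.mem_univ a))
      rw [this]
      exact L.one_mem
    | succ n ih =>
      intro S hS g hg hg' hT1
      obtain ⟨b, hb'⟩ : Sᶜ.Nonempty := by
        rw [← Finset.card_pos]
        omega
      have hb : b ∉ S := Finset.mem_compl.1 hb'
      have hcard : (insert b S)ᶜ.card = n := by
        rw [Finset.compl_insert, Finset.card_erase_of_mem hb', hS]
        rfl
      by_cases hj : e (p b) = 0
      · apply ih (insert b S) hcard g hg hg'
        intro c d hcd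
        by_cases hc : c ∈ S
        · exact hT1 c d (Or.inl hc)
        by_cases hd : d ∈ S
        · exact hT1 c d (Or.inr hd)
        have h0 : ((g : Matrix N N R) - 1) c d = 0 := by
          have h1 := hg c d
          rcases hcd with hcd | hcd
          · have : c = b := by
              rcases Finset.mem_insert.1 hcd with h2 | h2
              · exact h2
              · exact absurd h2 hc
            rw [← h.left h1, this, hj, zero_mul]
          · have : d = b := by
              rcases Finset.mem_insert.1 hcd with h2 | h2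
              · exact h2
              · exact absurd h2 hd
            rw [← h.right h1, this, hj, mul_zero]
        rw [Matrix.sub_apply, sub_eq_zero] at h0
        exact h0
      · obtain ⟨l, ⟨u, hu, rfl⟩, hl1, hl2⟩ := pivot h hE hD hb hj hg hg' (Units.inv_mul g) hT1
        rw [← Units.val_mul] at hl1 hl2
        have hg1 : Ov p T ((u * g : (Matrix N N R)ˣ) : Matrix N N R) := by
          rw [Units.val_mul]
          exact ov_mul hT (hOv u hu) hg
        obtain ⟨l2, r2, ⟨u2, hu2, rfl⟩, ⟨v2, hv2, rfl⟩, hl3⟩ := clear hE hb hg1 hl1 hl2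
        rw [← Units.val_mul, ← Units.val_mul] at hl3
        have hg2 : u2 * (u * g) * v2 ∈ L := by
          apply ih (insert b S) hcard _ _ _ hl3
          · rw [Units.val_mul, Units.val_mul]
            exact ov_mul hT (ov_mul hT (hOv u2 hu2) hg1) (hOv v2 hv2)
          · rw [mul_inv_rev, mul_inv_rev, mul_inv_rev, Units.val_mul, Units.val_mul,
              Units.val_mul]
            exact ov_mul hT (hOv _ (L.inv_mem hv2)) (ov_mul hT (ov_mul hT hg'
              (hOv _ (L.inv_mem hu))) (hOv _ (L.inv_mem hu2)))
        have h8 : u2 * (u * g) ∈ L := by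
          have := L.mul_mem hg2 (L.inv_mem hv2)
          rwa [mul_inv_cancel_right] at this
        have h9 : u * g ∈ L := by
          have := L.mul_mem (L.inv_mem hu2) h8
          rwa [inv_mul_cancel_left] at this
        have := L.mul_mem (L.inv_mem hu) h9
        rwa [inv_mul_cancel_left] at this
  exact key _ ∅ rfl g hg hg' (fun a b hab => by simp at hab)

end core

end Vale.Agent.P183.R2.H409
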