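import Vale.Agent.P183.R2.H577.Base
import Vale.Agent.P183.R2.H409.Elim

/-!
P183: elimination over local corners (row 4).
-/

namespace Vale.Agent.P183.H577

open Matrix Vale.Agent.P183.R2.H409

section

variable {R : Type} [Ring R] {n : ℕ}

/-- the Peirce components of `S` -/
def pc (e : Fin n → R) (S : Subring R) (i j : Fin n) : AddSubgroup R where
  carrier := {r | r ∈ S ∧ e i * r = r ∧ r * e j = r}
  zero_mem' := ⟨S.zero_mem, mul_zero _, zero_mul _⟩
  add_mem' := fun ha hb => ⟨S.add_mem ha.1 hb.1, by rw [mul_add, ha.2.1, hb.2.1],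
    by rw [add_mul, ha.2.2, hb.2.2]⟩
  neg_mem' := fun ha => ⟨S.neg_mem ha.1, by rw [mul_neg, ha.2.1], by rw [neg_mul, ha.2.2]⟩

lemma mem_pc {e : Fin n → R} {S : Subring R} {i j : Fin n} {r : R} :
    r ∈ pc e S i j ↔ r ∈ S ∧ e i * r = r ∧ r * e j = r := Iff.rfl

lemma localNet_pc (e : Fin n → R) (he : ∀ i, e i * e i = e i)
    (hl : ∀ i x, e i * x = x → x * e i = x →
      (∃ y, e i * y = y ∧ y * e i = y ∧ x * y = e i ∧ y * x = e i) ∨
      (∃ y, e i * y = y ∧ y * e i = y ∧ (e i - x) * y = e i ∧ y * (e i - x) = e i))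
    (S : Subring R) (hS : ∀ i x, e i * x * e i ∈ S) : LocalNet e (pc e S) where
  mul := fun hr hs => ⟨S.mul_mem hr.1 hs.1, by rw [← mul_assoc, hr.2.1],
    by rw [mul_assoc, hs.2.2]⟩
  id_mem := fun i => ⟨by have := hS i 1; rwa [mul_one, he] at this, he i, he i⟩
  left := fun hr => hr.2.1
  right := fun hr => hr.2.2
  loc := by
    intro j x y hx hy hxy
    have hz : ∀ z, e j * z = z → z * e j = z → z ∈ pc e S j j := by
      intro z h1 h2
      refine ⟨?_, h1, h2⟩
      have := hS j z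
      rwa [h1, h2] at this
    rcases hl j x hx.2.1 hx.2.2 with ⟨z, h1, h2, h3, h4⟩ | ⟨z, h1, h2, h3, h4⟩
    · exact Or.inl ⟨z, hz z h1 h2, h4, h3⟩
    · have : e j - x = y := by rw [← hxy, add_sub_cancel_left]
      rw [this] at h3 h4
      exact Or.inr ⟨z, hz z h1 h2, h4, h3⟩

end

variable {R : Type} [Ring R] [Finite R] {n : ℕ}

omit [Finite R] in
lemma ent_iff_ov {ι : Type} [Fintype ι] [DecidableEq ι] {e : Fin n → R} {S : Subring R}
    {p : ι → Fin n} {x : Matrix ι ι R} : Ent e S p (x - 1) ↔ Ov p (pc e S) x := Iff.rfl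

omit [Finite R] in
lemma ent_single {ι : Type} [DecidableEq ι] {e : Fin n → R} {S : Subring R}
    {p : ι → Fin n} {a b : ι} {r : R} (hr : r ∈ pc e S (p a) (p b)) :
    Ent e S p (Matrix.single a b r) := by
  intro c d
  rw [Matrix.single_apply]
  split_ifs with h1
  · obtain ⟨rfl, rfl⟩ := h1
    exact hr
  · exact ⟨S.zero_mem, mul_zero _, zero_mul _⟩

omit [Finite R] in
lemma blk_single {ι : Type} [DecidableEq ι] {e : Fin n → R} {S : Subring R}
    {p : ι → Fin n} {a b : ι} (hab : p a = p b) {r : R} (hr : r ∈ pc e S (p a) (p b)) :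
    Blk e p (Matrix.single a b r) := by
  refine ⟨(ent_single hr).mono le_top, ?_⟩
  intro c d hcd
  rw [Matrix.single_apply, if_neg]
  rintro ⟨rfl, rfl⟩
  exact hcd hab

/-- ROW 4 (elimination over local corners). -/
theorem elim_row {ι : Type} [Fintype ι] [DecidableEq ι] (e : Fin n → R)
    (he : ∀ i, e i * e i = e i) (ho : ∀ i j, i ≠ j → e i * e j = 0) (hs : ∑ i, e i = 1)
    (hl : ∀ i x, e i * x = x → x * e i = x →
      (∃ y, e i * y = y ∧ y * e i = y ∧ x * y = e i ∧ y * x = e i) ∨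
      (∃ y, e i * y = y ∧ y * e i = y ∧ (e i - x) * y = e i ∧ y * (e i - x) = e i))
    (p : ι → Fin n) (S : Subring R) (hS : ∀ i x, e i * x * e i ∈ S)
    (K : Subgroup (Matrix ι ι R)ˣ) (hK : bl e p ≤ K)
    (hT : ∀ a b, p a ≠ p b → ∀ x ∈ S, In K (Matrix.single a b (e (p a) * x * e (p b)))) :
    gl e S p ≤ K := by
  have h := localNet_pc e he hl S hS
  have hin : ∀ {N : Matrix ι ι R}, Ent e S p N → Mm K (1 + N) → Mm (K ⊓ gl e S p) (1 + N) := by
    rintro N hN ⟨g, hg, hgN⟩
    refine ⟨g, ⟨hg, ?_⟩, hgN⟩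
    change Ent e S p (g.1 - 1)
    rw [hgN, add_sub_cancel_left]
    exact hN
  have hbl : ∀ {N : Matrix ι ι R}, Blk e p N → (∃ M, (1 + N) * M = 1 ∧ M * (1 + N) = 1) →
      Mm K (1 + N) := by
    rintro N hN ⟨M, h1, h2⟩
    refine ⟨⟨1 + N, M, h1, h2⟩, hK ?_, rfl⟩
    change Blk e p (1 + N - 1)
    rw [add_sub_cancel_left]
    exact hN
  intro g hg
  refine (elim_core (p := p) h (L := K ⊓ gl e S p) ?_ ?_ ?_ g (ent_iff_ov.1 hg)
    (ent_iff_ov.1 ((gl e S p).inv_mem hg))).1
  · intro g hg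
    exact ent_iff_ov.1 hg.2
  · intro a b r hab hr
    apply hin (ent_single hr)
    by_cases hp : p a = p b
    · apply hbl (blk_single hp hr)
      have h1 : Matrix.single a b r * Matrix.single a b r = 0 :=
        Matrix.single_mul_single_of_ne _ _ _ _ (Ne.symm hab) _
      refine ⟨1 - Matrix.single a b r, ?_, ?_⟩
      · have : (1 + Matrix.single a b r) * (1 - Matrix.single a b r) =
            1 - Matrix.single a b r * Matrix.single a b r := by noncomm_ring
        rw [this, h1, sub_zero]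
      · have : (1 - Matrix.single a b r) * (1 + Matrix.single a b r) =
            1 - Matrix.single a b r * Matrix.single a b r := by noncomm_ring
        rw [this, h1, sub_zero]
    · have h1 := hT a b hp r hr.1
      rw [hr.2.1, hr.2.2] at h1
      exact h1
  · intro a x y hx hy hxy hyx
    have he' := h.id_mem (p a)
    apply hin (ent_single (sub_mem hx he'))
    apply hbl (blk_single rfl (sub_mem hx he'))
    have key : ∀ x y : R, x ∈ pc e S (p a) (p a) → y ∈ pc e S (p a) (p a) →
        x * y = e (p a) → (1 + Matrix.single a a (x - e (p a))) *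
          (1 + Matrix.single a a (y - e (p a))) = 1 := by
      intro x y hx hy hxy
      rw [mul_add, add_mul, add_mul, Matrix.single_mul_single_same, mul_one, mul_one, one_mul,
        add_assoc, ← Matrix.single_add, ← Matrix.single_add]
      have : x - e (p a) + (y - e (p a) + (x - e (p a)) * (y - e (p a))) = 0 := by
        rw [sub_mul, mul_sub, mul_sub, hxy, hx.2.2, hy.2.1, he]
        abel
      rw [this, Matrix.single_zero, add_zero]
    exact ⟨_, key x y hx hy hxy, key y x hy hx hyx⟩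

end Vale.Agent.P183.H577
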