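import Vale.Agent.P183.R2.H409.Cor
import Mathlib.Data.Matrix.Basis
import Mathlib.Algebra.Ring.Subring.Basic

/-!
Nets of ideals are the rings between the diagonal matrices and all matrices.
-/

namespace Vale.Agent.P183.R2.H409

open Matrix

variable (X R : Type) [CommRing R] [Fintype X] [DecidableEq X]

/-- The subrings of the matrix ring which contain all the diagonal matrices. -/
abbrev DiagSub : Type := {S : Subring (Matrix X X R) // ∀ d : X → R, Matrix.diagonal d ∈ S}

variable {X R}

lemma single_mem {S : Subring (Matrix X X R)} (hS : ∀ d : X → R, Matrix.diagonal d ∈ S)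
    {A : Matrix X X R} (hA : A ∈ S) (x y : X) : Matrix.single x y (A x y) ∈ S := by
  have h : Matrix.single x y (A x y) =
      Matrix.diagonal (Pi.single x 1) * A * Matrix.diagonal (Pi.single y 1) := by
    ext u v
    rw [Matrix.mul_diagonal, Matrix.diagonal_mul, Matrix.single_apply, Pi.single_apply,
      Pi.single_apply]
    by_cases h1 : x = u
    · subst h1
      by_cases h2 : y = v
      · subst h2
        simp
      · simp [h2, Ne.symm h2]
    · simp [h1, Ne.symm h1]
  rw [h]
  exact S.mul_mem (S.mul_mem (hS _) hA) (hS _)

/-- the ring of a net -/
def ringOf (s : Net X R) : DiagSub X R :=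
  ⟨{ carrier := {A | ∀ x y, A x y ∈ s.1 x y}
     one_mem' := by
       intro x y
       rcases eq_or_ne x y with rfl | h
       · rw [s.2.1 x]
         trivial
       · rw [Matrix.one_apply_ne h]
         exact Ideal.zero_mem _
     zero_mem' := fun x y => Ideal.zero_mem _
     add_mem' := fun hA hB x y => Ideal.add_mem _ (hA x y) (hB x y)
     neg_mem' := fun hA x y => (Ideal.neg_mem_iff _).2 (hA x y)
     mul_mem' := by
       intro A B hA hB x y
       rw [Matrix.mul_apply]
       exact Submodule.sum_mem _ fun z _ => s.2.2 x z y (Ideal.mul_mem_mul (hA x z) (hB z y)) },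
   fun d x y => by
     rcases eq_or_ne x y with rfl | h
     · rw [s.2.1 x]
       trivial
     · rw [Matrix.diagonal_apply_ne _ h]
       exact Ideal.zero_mem _⟩

lemma mem_ringOf {s : Net X R} {A : Matrix X X R} : A ∈ (ringOf s).1 ↔ ∀ x y, A x y ∈ s.1 x y :=
  Iff.rfl

/-- the net of a ring -/
def netOf (S : DiagSub X R) : Net X R :=
  ⟨fun x y =>
    { carrier := {a | Matrix.single x y a ∈ S.1}
      zero_mem' := by
        change Matrix.single x y (0 : R) ∈ S.1
        rw [Matrix.single_zero]
        exact S.1.zero_mem
      add_mem' := by
        intro a b ha hb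
        change Matrix.single x y (a + b) ∈ S.1
        rw [Matrix.single_add]
        exact S.1.add_mem ha hb
      smul_mem' := by
        intro c a ha
        change Matrix.single x y (c * a) ∈ S.1
        have h : Matrix.single x y (c * a) =
            Matrix.diagonal (fun _ => c) * Matrix.single x y a := by
          ext u v
          rw [Matrix.diagonal_mul, Matrix.single_apply, Matrix.single_apply, mul_ite, mul_zero]
        rw [h]
        exact S.1.mul_mem (S.2 _) ha },
    fun x => by
      rw [eq_top_iff]
      intro a _
      change Matrix.single x x a ∈ S.1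
      have h : Matrix.single x x a = Matrix.diagonal (Pi.single x a) := by
        ext u v
        rw [Matrix.single_apply, Matrix.diagonal_apply, Pi.single_apply]
        by_cases h1 : x = u
        · subst h1
          by_cases h2 : x = v
          · simp [h2]
          · simp [h2]
        · simp [h1, Ne.symm h1]
      rw [h]
      exact S.2 _,
    fun x y z => by
      rw [Ideal.mul_le]
      intro a ha b hb
      change Matrix.single x z (a * b) ∈ S.1
      have h := S.1.mul_mem (show Matrix.single x y a ∈ S.1 from ha)
        (show Matrix.single y z b ∈ S.1 from hb)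
      rwa [Matrix.single_mul_single_same] at h⟩

lemma mem_netOf {S : DiagSub X R} {x y : X} {a : R} :
    a ∈ (netOf S).1 x y ↔ Matrix.single x y a ∈ S.1 := Iff.rfl

/-- Nets of ideals are the rings between the diagonal matrices and all matrices. -/
def netIso (X R : Type) [CommRing R] [Fintype X] [DecidableEq X] : Net X R ≃o DiagSub X R where
  toFun := ringOf
  invFun := netOf
  left_inv s := by
    apply Subtype.ext
    funext x y
    ext a
    rw [mem_netOf, mem_ringOf]
    constructor
    · intro h
      have := h x y
      rwa [Matrix.single_apply_same] at this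
    · intro h u v
      rw [Matrix.single_apply]
      split_ifs with h1
      · obtain ⟨rfl, rfl⟩ := h1
        exact h
      · exact Ideal.zero_mem _
  right_inv S := by
    apply Subtype.ext
    ext A
    rw [mem_ringOf]
    constructor
    · intro h
      rw [Matrix.matrix_eq_sum_single A]
      exact S.1.sum_mem fun x _ => S.1.sum_mem fun y _ => h x y
    · intro h x y
      exact single_mem S.2 h x y
  map_rel_iff' := by
    intro s s'
    constructor
    · intro h x y a ha
      have h1 : Matrix.single x y a ∈ (ringOf s).1 := by
        intro u v
        rw [Matrix.single_apply]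
        split_ifs with h1
        · obtain ⟨rfl, rfl⟩ := h1
          exact ha
        · exact Ideal.zero_mem _
      have h2 := h h1 x y
      rwa [Matrix.single_apply_same] at h2
    · intro h A hA x y
      exact h x y (hA x y)

end Vale.Agent.P183.R2.H409
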